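import Vale.Agent.H40.KTV.GBasic

/-!
P335, row R1a: the refined pair-fibre relation `RPt` of a block `{u, v} x {w, z}` is an
equivalence relation, is frozen on the fixed points of the block switch, and meets the
pair-fibre relation of `{w, z}` only in the diagonal.
-/

namespace Vale.Agent.H36

open Finset SimpleGraph
open scoped Classical
open Vale.Agent.H90 (dot avgRel)
open Vale.Agent.H40.KTV

variable {V : Type} [Fintype V]

omit [Fintype V] in
theorem r1a_bl_le (G : SimpleGraph V) (a b : V) : bl G a b ≤ 1 := by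
  unfold bl
  split_ifs <;> simp

omit [Fintype V] in
theorem r1a_bl_comm (G : SimpleGraph V) (a b : V) : bl G a b = bl G b a := by
  unfold bl
  simp only [G.adj_comm a b]

omit [Fintype V] in
theorem r1a_bl_one (G : SimpleGraph V) (a b : V) : bl G a b = 1 ↔ G.Adj a b := by
  unfold bl
  split_ifs with h <;> simp [h]

omit [Fintype V] in
theorem r1a_bl_eq_iff (G H : SimpleGraph V) (a b : V) :
    bl G a b = bl H a b ↔ (G.Adj a b ↔ H.Adj a b) := by
  unfold bl
  by_cases h1 : G.Adj a b <;> by_cases h2 : H.Adj a b <;> simp [h1, h2]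

/-- the number of neighbours of `x` among `u, v` -/
theorem r1a_degIn (u v x : V) (huv : u ≠ v) (hxu : x ≠ u) (hxv : x ≠ v) (G : SimpleGraph V) :
    degIn (EP u v) G x = bl G u x + bl G v x := by
  unfold degIn
  have e : (univ.filter (fun y => s(x, y) ∈ EP u v ∧ G.Adj x y)) =
      (({u, v} : Finset V).filter (fun y => G.Adj x y)) := by
    ext y
    simp only [mem_filter, mem_univ, true_and, mem_insert, mem_singleton, mem_EP]
    constructor
    · rintro ⟨h1, h2⟩
      refine ⟨?_, h2⟩
      rcases h1 with (h | h) | (h | h)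
      · exact absurd h hxu
      · exact Or.inl h
      · exact absurd h hxv
      · exact Or.inr h
    · rintro ⟨h1, h2⟩
      refine ⟨?_, h2⟩
      rcases h1 with h | h
      · exact Or.inl (Or.inr h)
      · exact Or.inr (Or.inr h)
  rw [e, Finset.filter_insert, Finset.filter_singleton, r1a_bl_comm G u x, r1a_bl_comm G v x]
  unfold bl
  by_cases h1 : G.Adj x u <;> by_cases h2 : G.Adj x v <;> simp [h1, h2, huv]

/-- the column sums of the block are constant on the pair fibre of `{u, v}` -/
theorem r1a_col {u v x : V} (huv : u ≠ v) (hxu : x ≠ u) (hxv : x ≠ v) {G H : SimpleGraph V}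
    (h : RP u v G H) : bl G u x + bl G v x = bl H u x + bl H v x := by
  rw [← r1a_degIn u v x huv hxu hxv G, ← r1a_degIn u v x huv hxu hxv H]
  exact degIn_of_rel h x

/-- the number of block edges is constant on the pair fibre of `{u, v}` -/
theorem r1a_sig {u v w z : V} (h : Dist4 u v w z) {G H : SimpleGraph V} (hr : RP u v G H) :
    sig u v w z G = sig u v w z H := by
  obtain ⟨huv, huw, huz, hvw, hvz, hwz⟩ := h
  have h1 := r1a_col huv huw.symm hvw.symm hr
  have h2 := r1a_col huv huz.symm hvz.symm hr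
  unfold sig
  omega

omit [Fintype V] in
theorem r1a_blockEq_iff (u v w z : V) (G H : SimpleGraph V) :
    BlockEq u v w z G H ↔ (bl G u w = bl H u w ∧ bl G u z = bl H u z ∧ bl G v w = bl H v w ∧
      bl G v z = bl H v z) := by
  unfold BlockEq
  rw [r1a_bl_eq_iff, r1a_bl_eq_iff, r1a_bl_eq_iff, r1a_bl_eq_iff]

theorem rpt_equiv (u v w z : V) (h : Dist4 u v w z) : Equivalence (RPt u v w z) := by
  refine ⟨fun G => ⟨(rp_equiv u v).refl G, fun _ => ⟨Iff.rfl, Iff.rfl, Iff.rfl, Iff.rfl⟩⟩, ?_, ?_⟩
  · intro G H hGH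
    refine ⟨(rp_equiv u v).symm hGH.1, fun hs => ?_⟩
    rw [← r1a_sig h hGH.1] at hs
    obtain ⟨h1, h2, h3, h4⟩ := hGH.2 hs
    exact ⟨h1.symm, h2.symm, h3.symm, h4.symm⟩
  · intro G H K hGH hHK
    refine ⟨(rp_equiv u v).trans hGH.1 hHK.1, fun hs => ?_⟩
    obtain ⟨h1, h2, h3, h4⟩ := hGH.2 hs
    rw [r1a_sig h hGH.1] at hs
    obtain ⟨k1, k2, k3, k4⟩ := hHK.2 hs
    exact ⟨h1.trans k1, h2.trans k2, h3.trans k3, h4.trans k4⟩

omit [Fintype V] in
/-- a fixed point of the block switch is not a permutation pattern -/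
theorem r1a_not_perm (u v w z : V) (h : Dist4 u v w z) (G : SimpleGraph V)
    (hT : T u v w z G = G) : ¬ Perm u v w z G := by
  obtain ⟨huv, huw, huz, hvw, hvz, hwz⟩ := h
  rintro (hp | hp)
  · have e : T u v w z G = Vale.Agent.H12.Switch.swap G u w z v := by
      unfold T
      rw [if_pos hp]
    rw [e] at hT
    have h1 : (Vale.Agent.H12.Switch.swap G u w z v).Adj u w := by rw [hT]; exact hp.1
    rw [Vale.Agent.H12.Switch.swap_adj] at h1
    simp only [Sym2.eq_iff] at h1
    tauto
  · have hnp : ¬ (G.Adj u w ∧ G.Adj v z ∧ ¬ G.Adj u z ∧ ¬ G.Adj v w) := fun h' => h'.2.2.1 hp.1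
    have e : T u v w z G = Vale.Agent.H12.Switch.swap G u z w v := by
      unfold T
      rw [if_neg hnp, if_pos hp]
    rw [e] at hT
    have h1 : (Vale.Agent.H12.Switch.swap G u z w v).Adj u z := by rw [hT]; exact hp.1
    rw [Vale.Agent.H12.Switch.swap_adj] at h1
    have hzw : z ≠ w := hwz.symm
    simp only [Sym2.eq_iff] at h1
    tauto

theorem rpt_frozen (u v w z : V) (h : Dist4 u v w z) (G : SimpleGraph V)
    (hT : T u v w z G = G) :
    (∀ H, RP u v G H → RPt u v w z G H) ∨ (∀ H, RP w z G H → RPt w z u v G H) := by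
  have hnp := r1a_not_perm u v w z h G hT
  obtain ⟨huv, huw, huz, hvw, hvz, hwz⟩ := h
  have hnp' : ¬ ((bl G u w = 1 ∧ bl G v z = 1 ∧ bl G u z = 0 ∧ bl G v w = 0) ∨
      (bl G u z = 1 ∧ bl G v w = 1 ∧ bl G u w = 0 ∧ bl G v z = 0)) := by
    intro h'
    apply hnp
    have b1 := r1a_bl_le G u w
    have b2 := r1a_bl_le G u z
    have b3 := r1a_bl_le G v w
    have b4 := r1a_bl_le G v z
    unfold Perm
    rw [← r1a_bl_one G u w, ← r1a_bl_one G v z, ← r1a_bl_one G u z, ← r1a_bl_one G v w]
    omega
  have b1 := r1a_bl_le G u w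
  have b2 := r1a_bl_le G u z
  have b3 := r1a_bl_le G v w
  have b4 := r1a_bl_le G v z
  by_cases hs : sig u v w z G = 2
  · have hs' : bl G u w + bl G u z + bl G v w + bl G v z = 2 := hs
    by_cases hrow : bl G u w = bl G u z
    · right
      intro H hr
      refine ⟨hr, fun _ => ?_⟩
      have r1 := r1a_col hwz huw huz hr
      have r2 := r1a_col hwz hvw hvz hr
      have c1 := r1a_bl_le H w u
      have c2 := r1a_bl_le H z u
      have c3 := r1a_bl_le H w v
      have c4 := r1a_bl_le H z v
      rw [r1a_blockEq_iff]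
      rw [r1a_bl_comm G u w, r1a_bl_comm G u z, r1a_bl_comm G v w, r1a_bl_comm G v z] at *
      omega
    · left
      intro H hr
      refine ⟨hr, fun _ => ?_⟩
      have r1 := r1a_col huv huw.symm hvw.symm hr
      have r2 := r1a_col huv huz.symm hvz.symm hr
      have c1 := r1a_bl_le H u w
      have c2 := r1a_bl_le H u z
      have c3 := r1a_bl_le H v w
      have c4 := r1a_bl_le H v z
      rw [r1a_blockEq_iff]
      omega
  · left
    intro H hr
    exact ⟨hr, fun h2 => absurd h2 hs⟩

theorem rpt_inter (u v w z : V) (h : Dist4 u v w z) (G H : SimpleGraph V)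
    (h1 : RPt u v w z G H) (h2 : RP w z G H) : G = H := by
  obtain ⟨huv, huw, huz, hvw, hvz, hwz⟩ := h
  have hb : BlockEq u v w z G H := by
    by_cases hs : sig u v w z G = 2
    · exact h1.2 hs
    · have hs' : ¬ (bl G u w + bl G u z + bl G v w + bl G v z = 2) := hs
      have r1 := r1a_col hwz huw huz h2
      have r2 := r1a_col hwz hvw hvz h2
      have r3 := r1a_col huv huw.symm hvw.symm h1.1
      have r4 := r1a_col huv huz.symm hvz.symm h1.1
      rw [r1a_bl_comm G w u, r1a_bl_comm G z u, r1a_bl_comm H w u, r1a_bl_comm H z u] at r1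
      rw [r1a_bl_comm G w v, r1a_bl_comm G z v, r1a_bl_comm H w v, r1a_bl_comm H z v] at r2
      have b1 := r1a_bl_le G u w
      have b2 := r1a_bl_le G u z
      have b3 := r1a_bl_le G v w
      have b4 := r1a_bl_le G v z
      have c1 := r1a_bl_le H u w
      have c2 := r1a_bl_le H u z
      have c3 := r1a_bl_le H v w
      have c4 := r1a_bl_le H v z
      rw [r1a_blockEq_iff]
      omega
  obtain ⟨e1, e2, e3, e4⟩ := hb
  ext a b
  by_cases hS : s(a, b) ∈ EP u v
  · by_cases hS2 : s(a, b) ∈ EP w z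
    · rw [mem_EP] at hS hS2
      rcases hS with (ha | ha) | (ha | ha) <;> rcases hS2 with (hb' | hb') | (hb' | hb')
      · exact absurd (ha.symm.trans hb') huw
      · rw [ha, hb']; exact e1
      · exact absurd (ha.symm.trans hb') huz
      · rw [ha, hb']; exact e2
      · rw [ha, hb', G.adj_comm, H.adj_comm]; exact e1
      · exact absurd (ha.symm.trans hb') huw
      · rw [ha, hb', G.adj_comm, H.adj_comm]; exact e2
      · exact absurd (ha.symm.trans hb') huz
      · exact absurd (ha.symm.trans hb') hvw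
      · rw [ha, hb']; exact e3
      · exact absurd (ha.symm.trans hb') hvz
      · rw [ha, hb']; exact e4
      · rw [ha, hb', G.adj_comm, H.adj_comm]; exact e3
      · exact absurd (ha.symm.trans hb') hvw
      · rw [ha, hb', G.adj_comm, H.adj_comm]; exact e4
      · exact absurd (ha.symm.trans hb') hvz
    · exact rel_adj h2 hS2
  · exact rel_adj h1.1 hS

end Vale.Agent.H36
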